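import Mathlib
import Crest.Prelude.Def_ModularData

/-! Basic facts on the bounded functional calculus `LineCalculus`. -/

set_option autoImplicit false

namespace Crest.Agent.R84

open Crest.OpAlg Crest.OpAlg.LineCalculus Filter MeasureTheory BoundedContinuousFunction
open scoped Topology InnerProductSpace

variable {H : Type*} [NormedAddCommGroup H] [InnerProductSpace ℂ H] [CompleteSpace H]

lemma character_apply (t u : ℝ) :
    character t u = Complex.exp (Complex.I * ((t * u : ℝ) : ℂ)) := rfl

lemma norm_character_apply (t u : ℝ) : ‖character t u‖ = 1 := by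
  rw [character_apply, Complex.norm_exp]; simp

lemma character_add (s t : ℝ) : character (s + t) = character s * character t := by
  ext u
  simp only [character_apply, BoundedContinuousFunction.mul_apply, ← Complex.exp_add]
  congr 1
  push_cast; ring

lemma character_zero : character 0 = 1 := by
  ext u
  simp [character_apply]

lemma star_character (t : ℝ) : star (character t) = character (-t) := by
  ext u
  simp only [character_apply, BoundedContinuousFunction.star_apply, RCLike.star_def,
    ← Complex.exp_conj]
  congr 1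
  simp

lemma norm_apply_le (D : LineCalculus H) (f : ℝ →ᵇ ℂ) : ‖D.apply f‖ ≤ ‖f‖ :=
  NonUnitalStarAlgHom.norm_apply_le D.apply f

lemma norm_apply_apply_le (D : LineCalculus H) (f : ℝ →ᵇ ℂ) (x : H) :
    ‖D.apply f x‖ ≤ ‖f‖ * ‖x‖ :=
  ((D.apply f).le_opNorm x).trans (mul_le_mul_of_nonneg_right (norm_apply_le D f) (norm_nonneg _))

lemma apply_apply (D : LineCalculus H) (f g : ℝ →ᵇ ℂ) (x : H) :
    D.apply f (D.apply g x) = D.apply (f * g) x := by
  rw [map_mul]; rfl

lemma wave_add (D : LineCalculus H) (s t : ℝ) : D.wave (s + t) = D.wave s * D.wave t := by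
  simp only [wave, character_add, map_mul]

lemma wave_zero (D : LineCalculus H) : D.wave 0 = 1 := by
  simp only [wave, character_zero, map_one]

lemma star_wave (D : LineCalculus H) (t : ℝ) : star (D.wave t) = D.wave (-t) := by
  simp only [wave, ← star_character, map_star]

lemma wave_neg_mul (D : LineCalculus H) (t : ℝ) : D.wave (-t) * D.wave t = 1 := by
  rw [← wave_add, neg_add_cancel, wave_zero]

lemma wave_mul_neg (D : LineCalculus H) (t : ℝ) : D.wave t * D.wave (-t) = 1 := by
  rw [← wave_add, add_neg_cancel, wave_zero]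

lemma inner_wave_left (D : LineCalculus H) (t : ℝ) (x y : H) :
    ⟪D.wave t x, y⟫_ℂ = ⟪x, D.wave (-t) y⟫_ℂ := by
  rw [← star_wave, ContinuousLinearMap.star_eq_adjoint, ContinuousLinearMap.adjoint_inner_right]

lemma wave_neg_wave (D : LineCalculus H) (t : ℝ) (x : H) : D.wave (-t) (D.wave t x) = x := by
  have := congrArg (fun A : H →L[ℂ] H => A x) (wave_neg_mul D t)
  simpa using this

lemma wave_wave_neg (D : LineCalculus H) (t : ℝ) (x : H) : D.wave t (D.wave (-t) x) = x := by
  have := congrArg (fun A : H →L[ℂ] H => A x) (wave_mul_neg D t)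
  simpa using this

lemma inner_wave_wave (D : LineCalculus H) (t : ℝ) (x y : H) :
    ⟪D.wave t x, D.wave t y⟫_ℂ = ⟪x, y⟫_ℂ := by
  rw [inner_wave_left, wave_neg_wave]

lemma norm_wave_apply (D : LineCalculus H) (t : ℝ) (x : H) : ‖D.wave t x‖ = ‖x‖ := by
  have h := inner_wave_wave D t x x
  rw [inner_self_eq_norm_sq_to_K, inner_self_eq_norm_sq_to_K] at h
  have h2 : (‖D.wave t x‖ ^ 2 : ℝ) = ‖x‖ ^ 2 := by exact_mod_cast h
  exact (pow_left_inj₀ (norm_nonneg _) (norm_nonneg _) two_ne_zero).1 h2

lemma norm_wave_le (D : LineCalculus H) (t : ℝ) : ‖D.wave t‖ ≤ 1 :=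
  ContinuousLinearMap.opNorm_le_bound _ zero_le_one fun x => by rw [norm_wave_apply, one_mul]

/-- For compactly supported `g`, `t ↦ character t * g` is norm continuous. -/
lemma continuous_character_mul (g : ℝ →ᵇ ℂ) (hg : HasCompactSupport (g : ℝ → ℂ)) :
    Continuous fun t : ℝ => character t * g := by
  obtain ⟨R, hR0, hR⟩ : ∃ R : ℝ, 0 < R ∧ ∀ u, R < |u| → g u = 0 := by
    obtain ⟨R, hR⟩ := hg.isCompact.isBounded.subset_closedBall 0
    refine ⟨max R 1, by positivity, fun u hu => ?_⟩
    by_contra h
    have : u ∈ tsupport (g : ℝ → ℂ) := subset_tsupport _ h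
    have := hR this
    simp only [Metric.mem_closedBall, dist_zero_right, Real.norm_eq_abs] at this
    linarith [le_max_left R 1]
  have key : ∀ s t : ℝ, ‖character s * g - character t * g‖ ≤ (R * ‖g‖) * |s - t| := by
    intro s t
    rw [BoundedContinuousFunction.norm_le (by positivity)]
    intro u
    simp only [BoundedContinuousFunction.sub_apply, BoundedContinuousFunction.mul_apply]
    by_cases hu : R < |u|
    · rw [hR u hu]; simp; positivity
    · push Not at hu
      rw [← sub_mul, norm_mul]
      have h1 : ‖character s u - character t u‖ ≤ |s - t| * R := by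
        have : character s u - character t u = character t u * (character (s - t) u - 1) := by
          have : character s = character t * character (s - t) := by
            rw [← character_add]; congr 1; ring
          rw [this]; simp only [BoundedContinuousFunction.mul_apply]; ring
        rw [this, norm_mul, norm_character_apply, one_mul, character_apply]
        refine (Real.norm_exp_I_mul_ofReal_sub_one_le).trans ?_
        rw [Real.norm_eq_abs, abs_mul]
        exact mul_le_mul_of_nonneg_left hu (abs_nonneg _)
      calc ‖character s u - character t u‖ * ‖g u‖ ≤ (|s - t| * R) * ‖g‖ :=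
            mul_le_mul h1 (g.norm_coe_le_norm u) (norm_nonneg _) (by positivity)
        _ = _ := by ring
  refine LipschitzWith.continuous (K := ⟨R * ‖g‖, by positivity⟩)
    (LipschitzWith.of_dist_le_mul fun s t => ?_)
  rw [dist_eq_norm, Real.dist_eq]
  exact key s t

/-- The functional calculus as a continuous linear map. -/
noncomputable def applyL (D : LineCalculus H) : (ℝ →ᵇ ℂ) →L[ℂ] (H →L[ℂ] H) :=
  LinearMap.mkContinuous
    { toFun := fun f => D.apply f
      map_add' := fun f g => map_add _ f g
      map_smul' := fun c f => map_smul _ c f } 1 (fun f => by simpa using norm_apply_le D f)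

lemma applyL_apply (D : LineCalculus H) (f : ℝ →ᵇ ℂ) : applyL D f = D.apply f := rfl

/-- Density principle: a closed property holding for all `g(D) x` with `g` compactly supported
holds for `x`. -/
lemma mem_closure_window (D : LineCalculus H) (x : H) :
    x ∈ closure {y | ∃ g : ℝ →ᵇ ℂ, HasCompactSupport (g : ℝ → ℂ) ∧ y = D.apply g x} := by
  rw [Metric.mem_closure_iff]
  intro ε hε
  obtain ⟨f, hf, hfx⟩ := D.window x ε hε
  exact ⟨_, ⟨f, hf, rfl⟩, by rwa [dist_comm, dist_eq_norm]⟩

lemma continuous_wave_apply (D : LineCalculus H) (x : H) : Continuous fun t => D.wave t x := by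
  refine continuous_of_uniform_approx_of_continuous fun u hu => ?_
  obtain ⟨ε, hε, hsub⟩ := Metric.mem_uniformity_dist.1 hu
  obtain ⟨f, hf, hfx⟩ := D.window x ε hε
  refine ⟨fun t => D.wave t (D.apply f x), ?_, fun t => hsub ?_⟩
  · have : (fun t => D.wave t (D.apply f x)) = fun t => applyL D (character t * f) x := by
      ext t; rw [applyL_apply, ← apply_apply]; rfl
    rw [this]
    exact ((applyL D).continuous.comp (continuous_character_mul f hf)).clm_apply continuous_const
  · rw [dist_eq_norm, ← map_sub, norm_wave_apply, norm_sub_rev]; exact hfx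

lemma supportedIn_zero (D : LineCalculus H) (K : Set ℝ) : D.SupportedIn K 0 :=
  fun _ _ => map_zero _

lemma supportedIn_add {D : LineCalculus H} {K : Set ℝ} {x y : H} (hx : D.SupportedIn K x)
    (hy : D.SupportedIn K y) : D.SupportedIn K (x + y) :=
  fun f hf => by rw [map_add, hx f hf, hy f hf, add_zero]

lemma supportedIn_smul {D : LineCalculus H} {K : Set ℝ} {x : H} (c : ℂ) (hx : D.SupportedIn K x) :
    D.SupportedIn K (c • x) :=
  fun f hf => by rw [map_smul, hx f hf, smul_zero]

lemma supportedIn_apply {D : LineCalculus H} {K : Set ℝ} {x : H} (g : ℝ →ᵇ ℂ)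
    (hx : D.SupportedIn K x) : D.SupportedIn K (D.apply g x) :=
  fun f hf => by
    rw [apply_apply]
    exact hx _ fun u hu => by simp [hf u hu]

lemma supportedIn_wave {D : LineCalculus H} {K : Set ℝ} {x : H} (t : ℝ)
    (hx : D.SupportedIn K x) : D.SupportedIn K (D.wave t x) :=
  supportedIn_apply _ hx

lemma apply_eq_of_supportedIn {D : LineCalculus H} {K : Set ℝ} {x : H} (hx : D.SupportedIn K x)
    (f g : ℝ →ᵇ ℂ) (h : ∀ u ∈ K, f u = g u) : D.apply f x = D.apply g x := by
  have := hx (f - g) fun u hu => by simp [h u hu]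
  rwa [map_sub, _root_.sub_apply, sub_eq_zero] at this

lemma apply_eq_self_of_supportedIn {D : LineCalculus H} {K : Set ℝ} {x : H}
    (hx : D.SupportedIn K x) (f : ℝ →ᵇ ℂ) (h : ∀ u ∈ K, f u = 1) : D.apply f x = x := by
  rw [apply_eq_of_supportedIn hx f 1 (by simpa using h), map_one]; rfl

lemma supportedIn_apply_of_vanish (D : LineCalculus H) {K : Set ℝ} (F : ℝ →ᵇ ℂ)
    (hF : ∀ u, u ∉ K → F u = 0) (x : H) : D.SupportedIn K (D.apply F x) :=
  fun f hf => by
    rw [apply_apply]
    have : f * F = 0 := by
      ext u
      by_cases hu : u ∈ K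
      · simp [hf u hu]
      · simp [hF u hu]
    rw [this, map_zero]; rfl

lemma integrable_smul_wave (D : LineCalculus H) {k : ℝ → ℂ} (hk : Integrable k) (l : ℝ) (x : H) :
    Integrable fun τ => k τ • D.wave (l * τ) x := by
  refine Integrable.mono' (hk.norm.mul_const ‖x‖) ?_ (Eventually.of_forall fun τ => ?_)
  · exact hk.aestronglyMeasurable.smul
      ((continuous_wave_apply D x).comp (by fun_prop)).aestronglyMeasurable
  · rw [norm_smul, norm_wave_apply]

/-- Fourier representation: `∫ k(τ) exp(i l τ D) x dτ = F(D) x`. -/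
lemma integral_smul_wave (D : LineCalculus H) {k : ℝ → ℂ} (hk : Integrable k) (l : ℝ)
    (F : ℝ →ᵇ ℂ) (hF : ∀ u, F u = ∫ τ, k τ * character (l * τ) u) (x : H) :
    ∫ τ, k τ • D.wave (l * τ) x = D.apply F x := by
  have hcl : IsClosed {y : H | ∫ τ, k τ • D.wave (l * τ) y = D.apply F y} := by
    refine isClosed_eq ?_ (D.apply F).continuous
    refine LipschitzWith.continuous (K := ⟨∫ τ, ‖k τ‖, by positivity⟩)
      (LipschitzWith.of_dist_le_mul fun y z => ?_)
    rw [dist_eq_norm, dist_eq_norm, ← integral_sub (integrable_smul_wave D hk l y)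
      (integrable_smul_wave D hk l z)]
    refine (norm_integral_le_integral_norm _).trans (le_of_eq ?_)
    simp only [← smul_sub, ← map_sub, norm_smul, norm_wave_apply]
    rw [integral_mul_const]; rfl
  refine (hcl.closure_subset_iff.2 ?_) (mem_closure_window D x)
  rintro y ⟨g, hg, rfl⟩
  have hint : Integrable fun τ => k τ • (character (l * τ) * g) := by
    refine Integrable.mono' (hk.norm.mul_const ‖g‖) ?_ (Eventually.of_forall fun τ => ?_)
    · exact hk.aestronglyMeasurable.smul
        ((continuous_character_mul g hg).comp (by fun_prop)).aestronglyMeasurable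
    · rw [norm_smul]
      refine mul_le_mul_of_nonneg_left ?_ (norm_nonneg _)
      rw [BoundedContinuousFunction.norm_le (norm_nonneg _)]
      intro u
      simp only [BoundedContinuousFunction.mul_apply, norm_mul, norm_character_apply, one_mul]
      exact g.norm_coe_le_norm u
  have heq : ∫ τ, k τ • (character (l * τ) * g) = F * g := by
    ext u
    have := (BoundedContinuousFunction.evalCLM ℂ u).integral_comp_comm hint
    simp only [BoundedContinuousFunction.evalCLM_apply] at this
    rw [← this, BoundedContinuousFunction.mul_apply, hF, ← integral_mul_const]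
    congr 1; ext τ
    simp [mul_assoc]
  show ∫ τ, k τ • D.wave (l * τ) (D.apply g x) = D.apply F (D.apply g x)
  rw [apply_apply, ← heq]
  have h2 := ((ContinuousLinearMap.apply ℂ H x).comp (applyL D)).integral_comp_comm hint
  simp only [ContinuousLinearMap.comp_apply, ContinuousLinearMap.apply_apply, applyL_apply] at h2
  rw [← h2]
  congr 1; ext τ
  rw [map_smul, _root_.smul_apply, ← apply_apply]; rfl

end Crest.Agent.R84
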