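import Crest.Agent.R84.Vac

/-! The modular flow, strong integrals, and the ergodic limit of window averages. -/

set_option autoImplicit false

namespace Crest.Agent.R84

open Crest.OpAlg Crest.OpAlg.LineCalculus Filter MeasureTheory
open scoped Topology InnerProductSpace BoundedContinuousFunction

variable {H : Type*} [NormedAddCommGroup H] [InnerProductSpace ℂ H] [CompleteSpace H]

lemma flow_apply (S : ModularDatum H) (t : ℝ) (a : H →L[ℂ] H) (x : H) :
    S.flow t a x = S.D.wave t (a (S.D.wave (-t) x)) := rfl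

lemma flow_vac (S : ModularDatum H) (t : ℝ) (a : H →L[ℂ] H) :
    S.flow t a S.vac = S.D.wave t (a S.vac) := by
  rw [flow_apply, wave_vac]

lemma star_flow (S : ModularDatum H) (t : ℝ) (a : H →L[ℂ] H) :
    star (S.flow t a) = S.flow t (star a) := by
  simp only [ModularDatum.flow, star_mul, star_wave, neg_neg, mul_assoc]

lemma flow_mul (S : ModularDatum H) (t : ℝ) (a b : H →L[ℂ] H) :
    S.flow t (a * b) = S.flow t a * S.flow t b := by
  ext x
  simp only [mul_apply_eq_comp, flow_apply, wave_neg_wave]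

lemma flow_flow (S : ModularDatum H) (s t : ℝ) (a : H →L[ℂ] H) :
    S.flow s (S.flow t a) = S.flow (t + s) a := by
  simp only [ModularDatum.flow, neg_add, add_comm t s, wave_add, mul_assoc]
  rw [← wave_add, ← wave_add S.D (-s), add_comm (-t)]

lemma norm_flow_apply_le (S : ModularDatum H) (t : ℝ) (a : H →L[ℂ] H) (x : H) :
    ‖S.flow t a x‖ ≤ ‖a‖ * ‖x‖ := by
  rw [flow_apply, norm_wave_apply]
  refine (a.le_opNorm _).trans ?_
  rw [norm_wave_apply]

lemma norm_flow_le (S : ModularDatum H) (t : ℝ) (a : H →L[ℂ] H) : ‖S.flow t a‖ ≤ ‖a‖ :=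
  ContinuousLinearMap.opNorm_le_bound _ (norm_nonneg _) (norm_flow_apply_le S t a)

lemma continuous_wave_uncurry (D : LineCalculus H) :
    Continuous fun p : ℝ × H => D.wave p.1 p.2 := by
  refine continuous_prod_of_continuous_lipschitzWith' _ 1 (fun t => ?_)
    (fun x => continuous_wave_apply D x)
  refine LipschitzWith.of_dist_le_mul fun x y => ?_
  simp only [dist_eq_norm, ← map_sub, norm_wave_apply, NNReal.coe_one, one_mul, le_refl]

lemma continuous_flow_apply (S : ModularDatum H) (a : H →L[ℂ] H) (x : H) :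
    Continuous fun t => S.flow t a x := by
  simp only [flow_apply]
  exact (continuous_wave_uncurry S.D).comp (continuous_id.prodMk
    (a.continuous.comp ((continuous_wave_apply S.D x).comp continuous_neg)))

lemma mem_of_commute (M : VonNeumannAlgebra H) (L : H →L[ℂ] H)
    (h : ∀ y : H →L[ℂ] H, (∀ g ∈ M, g * y = y * g) → y * L = L * y) : L ∈ M := by
  have : L ∈ Set.centralizer (Set.centralizer (M : Set (H →L[ℂ] H))) := fun y hy => h y hy
  rwa [VonNeumannAlgebra.centralizer_centralizer] at this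

/-- Strong integral of a family of operators of `M`. -/
lemma exists_strong_integral (M : VonNeumannAlgebra H) (μ : Measure ℝ) (A : ℝ → H →L[ℂ] H)
    (β : ℝ → ℝ) (hA : ∀ x, AEStronglyMeasurable (fun t => A t x) μ) (hβ : Integrable β μ)
    (hb : ∀ t, ‖A t‖ ≤ β t) (hM : ∀ t, A t ∈ M) :
    ∃ L ∈ M, (∀ x, L x = ∫ t, A t x ∂μ) ∧ ‖L‖ ≤ ∫ t, β t ∂μ := by
  have hbd : ∀ x t, ‖A t x‖ ≤ β t * ‖x‖ := fun x t =>
    ((A t).le_opNorm x).trans (mul_le_mul_of_nonneg_right (hb t) (norm_nonneg _))
  have hint : ∀ x, Integrable (fun t => A t x) μ := fun x =>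
    Integrable.mono' (hβ.mul_const ‖x‖) (hA x) (Eventually.of_forall (hbd x))
  have hn : ∀ x, ‖∫ t, A t x ∂μ‖ ≤ (∫ t, β t ∂μ) * ‖x‖ := fun x => by
    rw [← integral_mul_const]
    exact norm_integral_le_of_norm_le (hβ.mul_const ‖x‖) (Eventually.of_forall (hbd x))
  let L : H →L[ℂ] H := LinearMap.mkContinuous
    { toFun := fun x => ∫ t, A t x ∂μ
      map_add' := fun x y => by simp only [map_add]; exact integral_add (hint x) (hint y)
      map_smul' := fun c x => by simp only [map_smul, RingHom.id_apply]; exact integral_smul _ _ }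
    (∫ t, β t ∂μ) hn
  have hL : ∀ x, L x = ∫ t, A t x ∂μ := fun x => rfl
  refine ⟨L, mem_of_commute M L fun y hy => ?_, hL, ?_⟩
  · ext x
    simp only [mul_apply_eq_comp, hL]
    rw [← y.integral_comp_comm (hint x)]
    congr 1; ext t
    have := congrArg (fun B : H →L[ℂ] H => B x) (hy _ (hM t))
    simpa using this.symm
  · exact LinearMap.mkContinuous_norm_le _
      (integral_nonneg fun t => (norm_nonneg _).trans (hb t)) _

/-- Weak-operator limit of a bounded family along an ultrafilter. -/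
lemma exists_wot_limit {ι : Type*} (ω : Ultrafilter ι) (A : ι → H →L[ℂ] H) (C : ℝ)
    (hC : ∀ i, ‖A i‖ ≤ C) :
    ∃ L : H →L[ℂ] H, ∀ x y, Tendsto (fun i => ⟪A i x, y⟫_ℂ) ω (𝓝 ⟪L x, y⟫_ℂ) := by
  have hb : ∀ i x y, ‖⟪A i x, y⟫_ℂ‖ ≤ C * ‖x‖ * ‖y‖ := fun i x y =>
    (norm_inner_le_norm _ _).trans (mul_le_mul_of_nonneg_right
      (((A i).le_opNorm x).trans (mul_le_mul_of_nonneg_right (hC i) (norm_nonneg _)))
      (norm_nonneg _))
  have hex : ∀ x y, ∃ z : ℂ, Tendsto (fun i => ⟪A i x, y⟫_ℂ) ω (𝓝 z) := by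
    intro x y
    obtain ⟨z, -, hz⟩ := (isCompact_closedBall (0 : ℂ) (C * ‖x‖ * ‖y‖)).ultrafilter_le_nhds
      (ω.map fun i => ⟪A i x, y⟫_ℂ) (by
        rw [Ultrafilter.coe_map, le_principal_iff, mem_map]
        exact Eventually.of_forall fun i => by simpa using hb i x y)
    exact ⟨z, hz⟩
  choose B hB using hex
  have hBb : ∀ x y, ‖B x y‖ ≤ C * ‖x‖ * ‖y‖ := fun x y =>
    le_of_tendsto (hB x y).norm (Eventually.of_forall fun i => hb i x y)
  let B' : H →ₗ⋆[ℂ] H →ₗ[ℂ] ℂ := LinearMap.mk₂'ₛₗ (starRingEnd ℂ) (RingHom.id ℂ) B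
    (fun x x' y => tendsto_nhds_unique (hB (x + x') y)
      (by simpa only [map_add, inner_add_left] using (hB x y).add (hB x' y)))
    (fun c x y => tendsto_nhds_unique (hB (c • x) y)
      (by simpa only [map_smul, inner_smul_left, smul_eq_mul] using
        (hB x y).const_mul (starRingEnd ℂ c)))
    (fun x y y' => tendsto_nhds_unique (hB x (y + y'))
      (by simpa only [inner_add_right] using (hB x y).add (hB x y')))
    (fun c x y => tendsto_nhds_unique (hB x (c • y))
      (by simpa only [inner_smul_right, smul_eq_mul, RingHom.id_apply] using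
        (hB x y).const_mul c))
  let B'' : H →L⋆[ℂ] H →L[ℂ] ℂ := LinearMap.mkContinuous₂ B' C hBb
  refine ⟨InnerProductSpace.continuousLinearMapOfBilin B'', fun x y => ?_⟩
  rw [InnerProductSpace.continuousLinearMapOfBilin_apply]
  exact hB x y

/-- Window average of a complex function. -/
noncomputable def wavg (g : ℝ → ℂ) (k : ℕ) : ℂ := ⨍ t in Set.Icc (-(k : ℝ)) (k : ℝ), g t

lemma wavg_eq (g : ℝ → ℂ) (k : ℕ) :
    wavg g k = ((2 * k : ℝ)⁻¹ : ℝ) • ∫ t in (-(k : ℝ))..(k : ℝ), g t := by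
  have hk : -(k : ℝ) ≤ k := by linarith [Nat.cast_nonneg (α := ℝ) k]
  rw [wavg, setAverage_eq, intervalIntegral.integral_of_le hk, integral_Icc_eq_integral_Ioc,
    Real.volume_real_Icc_of_le hk]
  congr 2; ring

lemma wavg_shift (g : ℝ → ℂ) (hg : Continuous g) (C : ℝ) (hC : ∀ t, ‖g t‖ ≤ C) (s : ℝ) :
    Tendsto (fun k => wavg (fun t => g (t + s)) k - wavg g k) atTop (𝓝 0) := by
  have key : ∀ k : ℕ, ‖wavg (fun t => g (t + s)) k - wavg g k‖ ≤ (C * |s|) * (k : ℝ)⁻¹ := by
    intro k
    rw [wavg_eq, wavg_eq, ← smul_sub, intervalIntegral.integral_comp_add_right,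
      intervalIntegral.integral_interval_sub_interval_comm' (hg.intervalIntegrable _ _)
        (hg.intervalIntegrable _ _) (hg.intervalIntegrable _ _), norm_smul]
    have h1 : ‖∫ t in (k : ℝ)..(k + s), g t‖ ≤ C * |s| := by
      simpa using intervalIntegral.norm_integral_le_of_norm_le_const
        (a := (k : ℝ)) (b := k + s) (f := g) (C := C) fun t _ => hC t
    have h2 : ‖∫ t in (-(k : ℝ))..(-k + s), g t‖ ≤ C * |s| := by
      simpa using intervalIntegral.norm_integral_le_of_norm_le_const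
        (a := -(k : ℝ)) (b := -k + s) (f := g) (C := C) fun t _ => hC t
    have h3 := (norm_sub_le _ _).trans (add_le_add h1 h2)
    calc _ ≤ ‖((2 * k : ℝ)⁻¹ : ℝ)‖ * (C * |s| + C * |s|) :=
          mul_le_mul_of_nonneg_left h3 (norm_nonneg _)
      _ = _ := by
          rw [Real.norm_eq_abs, abs_of_nonneg (by positivity), mul_inv]; ring
  refine squeeze_zero_norm key ?_
  simpa using (tendsto_inv_atTop_nhds_zero_nat (𝕜 := ℝ)).const_mul (C * |s|)

lemma wavg_neg (g : ℝ → ℂ) (k : ℕ) : wavg (fun t => g (-t)) k = wavg g k := by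
  rw [wavg_eq, wavg_eq, intervalIntegral.integral_comp_neg, neg_neg]

lemma wavg_const (c : ℂ) {k : ℕ} (hk : 1 ≤ k) : wavg (fun _ => c) k = c := by
  have : (0 : ℝ) < k := by exact_mod_cast hk
  rw [wavg_eq, intervalIntegral.integral_const, smul_smul]
  have : (2 * (k : ℝ))⁻¹ * (k - -k) = 1 := by field_simp; ring
  rw [this, one_smul]

/-- Ergodic limit of window averages of the flow. -/
theorem tendsto_wavg_flow (S : ModularDatum H) (herg : S.Ergodic) (ω : Ultrafilter ℕ)
    (hω : (ω : Filter ℕ) ≤ atTop) {b : H →L[ℂ] H} (hb : b ∈ S.M) (x y : H) :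
    Tendsto (wavg fun t => ⟪S.flow t b x, y⟫_ℂ) ω (𝓝 (⟪b S.vac, S.vac⟫_ℂ * ⟪x, y⟫_ℂ)) := by
  have hex : ∀ k : ℕ, ∃ L ∈ S.M, ‖L‖ ≤ ‖b‖ ∧
      ∀ x y, ⟪L x, y⟫_ℂ = wavg (fun t => ⟪S.flow t b x, y⟫_ℂ) k := by
    intro k
    set I : Set ℝ := Set.Icc (-(k : ℝ)) (k : ℝ)
    set μ : Measure ℝ := (volume.restrict I Set.univ)⁻¹ • volume.restrict I with hμ
    have : IsFiniteMeasure μ := by rw [hμ]; infer_instance
    have hμ1 : μ.real Set.univ ≤ 1 := by
      rw [hμ]; exact measureReal_le_one
    obtain ⟨L, hLM, hL, hLn⟩ := exists_strong_integral S.M μ (fun t => S.flow t b) (fun _ => ‖b‖)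
      (fun x => (continuous_flow_apply S b x).aestronglyMeasurable) (integrable_const _)
      (fun t => norm_flow_le S t b) (fun t => S.flow_mem t b hb)
    refine ⟨L, hLM, hLn.trans ?_, fun x y => ?_⟩
    · rw [integral_const, smul_eq_mul]
      exact mul_le_of_le_one_left (norm_nonneg _) hμ1
    · have hint : Integrable (fun t => S.flow t b x) μ :=
        Integrable.mono' (integrable_const (‖b‖ * ‖x‖))
          (continuous_flow_apply S b x).aestronglyMeasurable
          (Eventually.of_forall fun t => norm_flow_apply_le S t b x)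
      rw [hL, ← inner_conj_symm, ← integral_inner hint, ← integral_conj]
      simp only [inner_conj_symm]
      rfl
  choose A hAM hAn hA using hex
  obtain ⟨L, hL⟩ := exists_wot_limit ω A ‖b‖ hAn
  have hL' : ∀ x y, Tendsto (wavg fun t => ⟪S.flow t b x, y⟫_ℂ) ω (𝓝 ⟪L x, y⟫_ℂ) := by
    intro x y
    have := hL x y
    simp only [hA] at this
    exact this
  have hLM : L ∈ S.M := by
    refine mem_of_commute _ _ fun z hz => ?_
    ext x
    refine ext_inner_right ℂ fun y => ?_
    have h1 := hL x (star z y)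
    have h2 := hL (z x) y
    have h3 : ∀ i, ⟪A i x, star z y⟫_ℂ = ⟪A i (z x), y⟫_ℂ := by
      intro i
      have := congrArg (fun B : H →L[ℂ] H => B x) (hz _ (hAM i))
      simp only [mul_apply_eq_comp] at this
      rw [this, ContinuousLinearMap.star_eq_adjoint, ContinuousLinearMap.adjoint_inner_right]
    simp only [h3] at h1
    have := tendsto_nhds_unique h1 h2
    rw [ContinuousLinearMap.star_eq_adjoint, ContinuousLinearMap.adjoint_inner_right] at this
    exact this
  have hinv : ∀ s, S.flow s L = L := by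
    intro s
    ext x
    refine ext_inner_right ℂ fun y => ?_
    rw [flow_apply, inner_wave_left]
    have h1 := hL' (S.D.wave (-s) x) (S.D.wave (-s) y)
    have h2 : ∀ t, ⟪S.flow t b (S.D.wave (-s) x), S.D.wave (-s) y⟫_ℂ =
        ⟪S.flow (t + s) b x, y⟫_ℂ := by
      intro t
      rw [← flow_flow, flow_apply S s, inner_wave_left]
    simp only [h2] at h1
    have h3 := (wavg_shift (fun t => ⟪S.flow t b x, y⟫_ℂ)
      ((continuous_flow_apply S b x).inner continuous_const) (‖b‖ * ‖x‖ * ‖y‖)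
      (fun t => (norm_inner_le_norm _ _).trans (mul_le_mul_of_nonneg_right
        (norm_flow_apply_le S t b x) (norm_nonneg _))) s).mono_left hω
    have h4 := h3.add (hL' x y)
    simp only [sub_add_cancel, zero_add] at h4
    exact tendsto_nhds_unique h1 h4
  obtain ⟨c, hc⟩ := herg L hLM hinv
  have hc' : ⟪L S.vac, S.vac⟫_ℂ = ⟪b S.vac, S.vac⟫_ℂ := by
    have h1 := hL' S.vac S.vac
    have h2 : ∀ t, ⟪S.flow t b S.vac, S.vac⟫_ℂ = ⟪b S.vac, S.vac⟫_ℂ := by
      intro t
      rw [flow_vac, inner_wave_left, wave_vac]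
    simp only [h2] at h1
    refine tendsto_nhds_unique h1 (tendsto_const_nhds.congr' ?_)
    filter_upwards [hω (eventually_ge_atTop 1)] with k hk
    exact (wavg_const _ hk).symm
  have h5 := hL' x y
  rw [hc] at h5 hc'
  simp only [smul_apply, one_apply_eq_self, inner_smul_left] at h5 hc'
  rw [inner_self_eq_norm_sq_to_K, S.norm_vac] at hc'
  rw [← hc']
  simpa using h5

end Crest.Agent.R84
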