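import Crest.Agent.R84.Flow

/-! The greedy construction of an element with controlled fourth moment. -/

set_option autoImplicit false

namespace Crest.Agent.R84

open Crest.OpAlg Crest.OpAlg.LineCalculus Filter MeasureTheory
open scoped Topology InnerProductSpace BoundedContinuousFunction

variable {H : Type*} [NormedAddCommGroup H] [InnerProductSpace ℂ H] [CompleteSpace H]

lemma tendsto_ultraMean (ω : Ultrafilter ℕ) (f : ℝ → ℝ) (C : ℝ) (hC : ∀ t, ‖f t‖ ≤ C) :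
    Tendsto (windowMean f) ω (𝓝 (ultraMean ω f)) := by
  refine tendsto_nhds_limUnder ?_
  have hb : ∀ k, ‖windowMean f k‖ ≤ C := by
    intro k
    set I : Set ℝ := Set.Icc (-(k : ℝ)) (k : ℝ)
    set μ : Measure ℝ := (volume.restrict I Set.univ)⁻¹ • volume.restrict I with hμ
    have : IsFiniteMeasure μ := by rw [hμ]; infer_instance
    have hμ1 : μ.real Set.univ ≤ 1 := by
      rw [hμ]; exact measureReal_le_one
    have h0 : 0 ≤ C := (norm_nonneg _).trans (hC 0)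
    exact (norm_integral_le_of_norm_le_const (μ := μ) (Eventually.of_forall hC)).trans
      (mul_le_of_le_one_right h0 hμ1)
  obtain ⟨z, -, hz⟩ := (isCompact_closedBall (0 : ℝ) C).ultrafilter_le_nhds
    (ω.map (windowMean f)) (by
      rw [Ultrafilter.coe_map, le_principal_iff, mem_map]
      exact Eventually.of_forall fun i => by simpa using hb i)
  exact ⟨z, hz⟩

lemma windowMean_combo (g0 : ℝ → ℝ) (g1 g2 g3 : ℝ → ℂ) (h0 : Continuous g0) (h1 : Continuous g1)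
    (h2 : Continuous g2) (h3 : Continuous g3) (m : ℝ) (k : ℕ) :
    windowMean (fun t => g0 t - m * (2 * (g1 t).re + 2 * (g2 t).re + 2 * (g3 t).re)) k =
      windowMean g0 k - m * (2 * (wavg g1 k).re + 2 * (wavg g2 k).re + 2 * (wavg g3 k).re) := by
  have hre : ∀ g : ℝ → ℂ, Continuous g →
      (∫ t in Set.Icc (-(k : ℝ)) (k : ℝ), g t).re = ∫ t in Set.Icc (-(k : ℝ)) (k : ℝ), (g t).re :=
    fun g hg => (Complex.reCLM.integral_comp_comm hg.continuousOn.integrableOn_Icc).symm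
  have hi : ∀ g : ℝ → ℝ, Continuous g → IntegrableOn g (Set.Icc (-(k : ℝ)) (k : ℝ)) :=
    fun g hg => hg.continuousOn.integrableOn_Icc
  simp only [windowMean, wavg, setAverage_eq, Complex.smul_re, hre _ h1, hre _ h2, hre _ h3,
    smul_eq_mul]
  rw [integral_sub (hi _ h0) (hi _ (by fun_prop)), integral_const_mul,
    integral_add (hi _ (by fun_prop)) (hi _ (by fun_prop)),
    integral_add (hi _ (by fun_prop)) (hi _ (by fun_prop)), integral_const_mul,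
    integral_const_mul, integral_const_mul]
  ring

lemma inner_star_mul_self (a : H →L[ℂ] H) (x : H) :
    ⟪(star a * a) x, x⟫_ℂ = ((‖a x‖ ^ 2 : ℝ) : ℂ) := by
  rw [mul_apply_eq_comp, ContinuousLinearMap.star_eq_adjoint,
    ContinuousLinearMap.adjoint_inner_left, inner_self_eq_norm_sq_to_K]
  simp

lemma inner_star_mul_self' (a : H →L[ℂ] H) (x : H) :
    ⟪x, (star a * a) x⟫_ℂ = ((‖a x‖ ^ 2 : ℝ) : ℂ) := by
  rw [← inner_conj_symm, inner_star_mul_self, Complex.conj_ofReal]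

lemma inner_mul_star_self (a : H →L[ℂ] H) (x : H) :
    ⟪(a * star a) x, x⟫_ℂ = ((‖star a x‖ ^ 2 : ℝ) : ℂ) := by
  simpa using inner_star_mul_self (star a) x

theorem exists_time (S : ModularDatum H) (herg : S.Ergodic) (ω : Ultrafilter ℕ)
    (hω : (ω : Filter ℕ) ≤ atTop) (T : H →L[ℂ] H) {a v : H →L[ℂ] H} (ha : a ∈ S.M)
    (hv : v ∈ S.M) (h : H) {c B θ m : ℝ}
    (hc : c ≤ ultraMean ω (fun t : ℝ => ‖T (S.D.wave t h)‖ ^ 2)) (hθ : 0 < θ) (hm : 0 ≤ m)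
    (hB1 : ‖a S.vac‖ ^ 2 ≤ B) (hB2 : ‖star a S.vac‖ ^ 2 ≤ B) :
    ∃ t : ℝ, c - θ - 4 * m * B * (‖v S.vac‖ ^ 2 + ‖star v S.vac‖ ^ 2) ≤
      ‖T (S.D.wave t h)‖ ^ 2 - m * (2 * (⟪S.flow t (star a * a) S.vac, (star v * v) S.vac⟫_ℂ).re +
        2 * ‖star v (S.flow t a S.vac)‖ ^ 2 + 2 * ‖star (S.flow t a) (v S.vac)‖ ^ 2) := by
  set g0 : ℝ → ℝ := fun t => ‖T (S.D.wave t h)‖ ^ 2 with hg0
  set g1 : ℝ → ℂ := fun t => ⟪S.flow t (star a * a) S.vac, (star v * v) S.vac⟫_ℂ with hg1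
  set g2 : ℝ → ℂ := fun t => ⟪S.flow (-t) (v * star v) (a S.vac), a S.vac⟫_ℂ with hg2
  set g3 : ℝ → ℂ := fun t => ⟪S.flow t (a * star a) (v S.vac), v S.vac⟫_ℂ with hg3
  have c0 : Continuous g0 := (T.continuous.comp (continuous_wave_apply S.D h)).norm.pow 2
  have c1 : Continuous g1 := (continuous_flow_apply S _ _).inner continuous_const
  have c2 : Continuous g2 :=
    ((continuous_flow_apply S _ _).comp continuous_neg).inner continuous_const
  have c3 : Continuous g3 := (continuous_flow_apply S _ _).inner continuous_const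
  have t0 : Tendsto (windowMean g0) ω (𝓝 (ultraMean ω g0)) := by
    refine tendsto_ultraMean ω g0 ((‖T‖ * ‖h‖) ^ 2) fun t => ?_
    rw [hg0, Real.norm_eq_abs, abs_of_nonneg (by positivity)]
    refine pow_le_pow_left₀ (norm_nonneg _) ((T.le_opNorm _).trans ?_) 2
    rw [norm_wave_apply]
  have t1 := tendsto_wavg_flow S herg ω hω (mul_mem (star_mem ha) ha) S.vac ((star v * v) S.vac)
  have t2 := tendsto_wavg_flow S herg ω hω (mul_mem hv (star_mem hv)) (a S.vac) (a S.vac)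
  have t3 := tendsto_wavg_flow S herg ω hω (mul_mem ha (star_mem ha)) (v S.vac) (v S.vac)
  have t2' : Tendsto (wavg g2) ω
      (𝓝 (⟪(v * star v) S.vac, S.vac⟫_ℂ * ⟪a S.vac, a S.vac⟫_ℂ)) :=
    t2.congr fun k => (wavg_neg _ k).symm
  rw [inner_star_mul_self, inner_star_mul_self', ← Complex.ofReal_mul] at t1
  rw [inner_mul_star_self, inner_self_eq_norm_sq_to_K] at t2' t3
  have t1r := (Complex.continuous_re.tendsto _).comp t1
  have t2r := (Complex.continuous_re.tendsto _).comp t2'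
  have t3r := (Complex.continuous_re.tendsto _).comp t3
  have e2 : (((‖star v S.vac‖ ^ 2 : ℝ) : ℂ) * ((‖a S.vac‖ : ℝ) : ℂ) ^ 2).re =
      ‖star v S.vac‖ ^ 2 * ‖a S.vac‖ ^ 2 := by
    rw [← Complex.ofReal_pow, ← Complex.ofReal_mul, Complex.ofReal_re]
  have e3 : (((‖star a S.vac‖ ^ 2 : ℝ) : ℂ) * ((‖v S.vac‖ : ℝ) : ℂ) ^ 2).re =
      ‖star a S.vac‖ ^ 2 * ‖v S.vac‖ ^ 2 := by
    rw [← Complex.ofReal_pow, ← Complex.ofReal_mul, Complex.ofReal_re]
  rw [Complex.ofReal_re] at t1r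
  erw [e2] at t2r
  erw [e3] at t3r
  have tall := t0.sub ((((t1r.const_mul 2).add (t2r.const_mul 2)).add (t3r.const_mul 2)).const_mul m)
  have hlt : c - θ - 4 * m * B * (‖v S.vac‖ ^ 2 + ‖star v S.vac‖ ^ 2) <
      ultraMean ω g0 - m * (2 * (‖a S.vac‖ ^ 2 * ‖v S.vac‖ ^ 2) +
        2 * (‖star v S.vac‖ ^ 2 * ‖a S.vac‖ ^ 2) + 2 * (‖star a S.vac‖ ^ 2 * ‖v S.vac‖ ^ 2)) := by
    have p1 : 0 ≤ ‖v S.vac‖ ^ 2 := by positivity
    have p2 : 0 ≤ ‖star v S.vac‖ ^ 2 := by positivity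
    have p3 : 0 ≤ B := le_trans (by positivity) hB1
    have q1 := mul_le_mul_of_nonneg_right hB1 p1
    have q2 := mul_le_mul_of_nonneg_left hB1 p2
    have q3 := mul_le_mul_of_nonneg_right hB2 p1
    have q4 : 2 * (‖a S.vac‖ ^ 2 * ‖v S.vac‖ ^ 2) +
        2 * (‖star v S.vac‖ ^ 2 * ‖a S.vac‖ ^ 2) + 2 * (‖star a S.vac‖ ^ 2 * ‖v S.vac‖ ^ 2) ≤
        4 * B * (‖v S.vac‖ ^ 2 + ‖star v S.vac‖ ^ 2) := by nlinarith [mul_nonneg p3 p2]
    have q5 := mul_le_mul_of_nonneg_left q4 hm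
    nlinarith
  obtain ⟨k, hk, hk1⟩ :=
    ((tall.eventually (lt_mem_nhds hlt)).and (hω (eventually_ge_atTop 1))).exists
  simp only [Function.comp] at hk
  rw [← windowMean_combo g0 g1 g2 g3 c0 c1 c2 c3] at hk
  have hk0 : (0 : ℝ) < k := by exact_mod_cast hk1
  obtain ⟨t, -, ht⟩ := exists_setAverage_le (μ := volume) (s := Set.Icc (-(k : ℝ)) (k : ℝ))
    (f := fun t => g0 t - m * (2 * (g1 t).re + 2 * (g2 t).re + 2 * (g3 t).re))
    (by simp [Real.volume_Icc]; omega) (by simp [Real.volume_Icc])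
    (Continuous.continuousOn (by fun_prop)).integrableOn_Icc
  refine ⟨t, hk.le.trans (ht.trans (le_of_eq ?_))⟩
  have f2 : (g2 t).re = ‖star v (S.flow t a S.vac)‖ ^ 2 := by
    simp only [hg2]
    rw [flow_apply, inner_wave_left, neg_neg, inner_mul_star_self, flow_vac, Complex.ofReal_re]
  have f3 : (g3 t).re = ‖star (S.flow t a) (v S.vac)‖ ^ 2 := by
    simp only [hg3]
    rw [flow_mul, ← star_flow, inner_mul_star_self, Complex.ofReal_re]
  rw [f2, f3]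

/-- The potential function. -/
noncomputable def pot (ξ : H) (T : H →L[ℂ] H) (l m κ : ℝ) (v : H →L[ℂ] H) (w : H) : ℝ :=
  ‖T w‖ ^ 2 - l * ‖v ξ - w‖ ^ 2 - m * ‖(star v * v) ξ‖ ^ 2 - κ * (‖v ξ‖ ^ 2 + ‖star v ξ‖ ^ 2)

omit [CompleteSpace H] in
lemma parallelogram' (x y : H) : ‖x + y‖ ^ 2 + ‖x - y‖ ^ 2 = 2 * (‖x‖ ^ 2 + ‖y‖ ^ 2) := by
  have := parallelogram_law_with_norm ℂ x y
  nlinarith

lemma sign_step (ξ : H) (T : H →L[ℂ] H) (l m κ : ℝ) (hm : 0 ≤ m) (v b : H →L[ℂ] H) (w u : H) :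
    let R := pot ξ T l m κ v w + (‖T u‖ ^ 2 - l * ‖b ξ - u‖ ^ 2 -
      m * (2 * (⟪(star b * b) ξ, (star v * v) ξ⟫_ℂ).re + ‖(star b * b) ξ‖ ^ 2 +
        2 * ‖star v (b ξ)‖ ^ 2 + 2 * ‖star b (v ξ)‖ ^ 2) - κ * (‖b ξ‖ ^ 2 + ‖star b ξ‖ ^ 2))
    R ≤ pot ξ T l m κ (v + b) (w + u) ∨ R ≤ pot ξ T l m κ (v - b) (w - u) := by
  intro R
  have h1 := parallelogram' (T w) (T u)
  have h2 := parallelogram' (v ξ - w) (b ξ - u)
  have h3 := parallelogram' ((star b * b) ξ + (star v * v) ξ) (star v (b ξ) + star b (v ξ))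
  have h4 := parallelogram' (v ξ) (b ξ)
  have h5 := parallelogram' (star v ξ) (star b ξ)
  have h6 := @norm_add_sq ℂ H _ _ _ ((star b * b) ξ) ((star v * v) ξ)
  have h7 := parallelogram' (star v (b ξ)) (star b (v ξ))
  have h8 : 0 ≤ ‖star v (b ξ) - star b (v ξ)‖ ^ 2 := by positivity
  simp only [RCLike.re_to_complex] at h6
  have e1 : (v + b) ξ - (w + u) = (v ξ - w) + (b ξ - u) := by simp only [add_apply]; abel
  have e2 : (v - b) ξ - (w - u) = (v ξ - w) - (b ξ - u) := by simp only [sub_apply]; abel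
  have e3 : (star (v + b) * (v + b)) ξ =
      ((star b * b) ξ + (star v * v) ξ) + (star v (b ξ) + star b (v ξ)) := by
    simp only [star_add, mul_apply_eq_comp, add_apply, map_add]; abel
  have e4 : (star (v - b) * (v - b)) ξ =
      ((star b * b) ξ + (star v * v) ξ) - (star v (b ξ) + star b (v ξ)) := by
    simp only [star_sub, mul_apply_eq_comp, sub_apply, map_sub]; abel
  have hsum : 2 * R ≤ pot ξ T l m κ (v + b) (w + u) + pot ξ T l m κ (v - b) (w - u) := by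
    simp only [R, pot]
    rw [e1, e2, e3, e4, map_add T, map_sub T, star_add, star_sub, add_apply, sub_apply, add_apply,
      sub_apply]
    have q : m * ‖star v (b ξ) + star b (v ξ)‖ ^ 2 ≤
        m * (2 * ‖star v (b ξ)‖ ^ 2 + 2 * ‖star b (v ξ)‖ ^ 2) :=
      mul_le_mul_of_nonneg_left (by linarith) hm
    have a1 := congrArg (l * ·) h2
    have a2 := congrArg (m * ·) h3
    have a3 := congrArg (κ * ·) h4
    have a4 := congrArg (κ * ·) h5
    have a5 := congrArg (m * ·) h6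
    linarith
  by_contra hcon
  push Not at hcon
  linarith [hcon.1, hcon.2]

theorem exists_greedy (S : ModularDatum H) (herg : S.Ergodic) (ω : Ultrafilter ℕ)
    (hω : (ω : Filter ℕ) ≤ atTop) (T : H →L[ℂ] H) {a : H →L[ℂ] H} (ha : a ∈ S.M)
    {h : H} {K : Set ℝ} (hK : S.D.SupportedIn K h) {c B l m η : ℝ} (hc0 : 0 < c)
    (hc : c ≤ ultraMean ω (fun t : ℝ => ‖T (S.D.wave t h)‖ ^ 2)) (hm : 0 ≤ m) (hl : 0 ≤ l)
    (hB1 : ‖a S.vac‖ ^ 2 ≤ B) (hB2 : ‖star a S.vac‖ ^ 2 ≤ B) (hη : ‖a S.vac - h‖ ≤ η)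
    (hmB : 8 * m * B ^ 2 ≤ c / 4) (hlη : l * η ^ 2 ≤ c / 8) :
    ∃ v ∈ S.M, ∃ w, S.D.SupportedIn K w ∧ c / 4 ≤ pot S.vac T l m 0 v w := by
  have hB : 0 ≤ B := le_trans (by positivity) hB1
  obtain ⟨N, hN⟩ := exists_nat_gt (max 1 (8 * m * ‖a‖ ^ 4 / c))
  have hN0 : (0 : ℝ) < N := lt_of_lt_of_le one_pos ((le_max_left _ _).trans hN.le)
  have hNa : m * ((N : ℝ)⁻¹ * ‖a‖ ^ 4) ≤ c / 8 := by
    have : 8 * m * ‖a‖ ^ 4 / c < N := (le_max_right _ _).trans_lt hN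
    rw [div_lt_iff₀ hc0] at this
    rw [← mul_assoc, mul_comm m, mul_assoc, inv_mul_le_iff₀ hN0]
    nlinarith
  set ε : ℝ := Real.sqrt (N : ℝ)⁻¹ with hε
  have hε2 : ε ^ 2 = (N : ℝ)⁻¹ := Real.sq_sqrt (by positivity)
  have hε0 : 0 ≤ ε := Real.sqrt_nonneg _
  have key : ∀ k : ℕ, k ≤ N → ∃ v ∈ S.M, ∃ w, S.D.SupportedIn K w ∧
      k * ((N : ℝ)⁻¹ * (c / 4)) ≤ pot S.vac T l m (4 * m * B * (N - k) * (N : ℝ)⁻¹) v w := by
    intro k
    induction k with
    | zero =>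
      intro _
      exact ⟨0, zero_mem _, 0, supportedIn_zero _ _, by simp [pot]⟩
    | succ k ih =>
      intro hk
      obtain ⟨v, hv, w, hw, hp⟩ := ih (Nat.le_of_succ_le hk)
      obtain ⟨t, ht⟩ := exists_time S herg ω hω T ha hv h hc (θ := c / 4) (by positivity) hm
        hB1 hB2
      set κ : ℝ := 4 * m * B * (N - (k + 1 : ℕ)) * (N : ℝ)⁻¹ with hκ
      have hκ0 : 0 ≤ κ := by
        have : (0 : ℝ) ≤ N - (k + 1 : ℕ) := by rw [sub_nonneg]; exact_mod_cast hk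
        positivity
      have hκ1 : κ ≤ 4 * m * B := by
        rw [hκ, mul_assoc (4 * m * B)]
        refine mul_le_of_le_one_right (by positivity) ?_
        rw [mul_inv_le_iff₀ hN0]
        have : (0 : ℝ) ≤ (k + 1 : ℕ) := by positivity
        linarith
      set b : H →L[ℂ] H := (ε : ℂ) • S.flow t a with hb
      set u : H := (ε : ℂ) • S.D.wave t h with hu
      have hbM : b ∈ S.M := S.M.toStarSubalgebra.smul_mem (S.flow_mem t a ha) _
      have huK : S.D.SupportedIn K u := supportedIn_smul _ (supportedIn_wave t hK)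
      have hstep := sign_step S.vac T l m κ hm v b w u
      have hsb : star b = (ε : ℂ) • star (S.flow t a) := by
        rw [hb, star_smul]; simp
      have nε : ‖(ε : ℂ)‖ = ε := by simp [hε0]
      have i1 : ‖T u‖ ^ 2 = (N : ℝ)⁻¹ * ‖T (S.D.wave t h)‖ ^ 2 := by
        rw [hu, map_smul, norm_smul, nε, mul_pow, hε2]
      have i2 : ‖b S.vac - u‖ ^ 2 ≤ (N : ℝ)⁻¹ * η ^ 2 := by
        rw [hb, hu, smul_apply, ← smul_sub, norm_smul, nε, mul_pow, hε2, flow_vac, ← map_sub,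
          norm_wave_apply]
        exact mul_le_mul_of_nonneg_left (pow_le_pow_left₀ (norm_nonneg _) hη 2) (by positivity)
      have hbb : (star b * b) = (((N : ℝ)⁻¹ : ℝ) : ℂ) • S.flow t (star a * a) := by
        rw [hsb, hb, smul_mul_smul_comm, flow_mul, star_flow, ← hε2]
        congr 1; push_cast; ring
      have i3 : (⟪(star b * b) S.vac, (star v * v) S.vac⟫_ℂ).re =
          (N : ℝ)⁻¹ * (⟪S.flow t (star a * a) S.vac, (star v * v) S.vac⟫_ℂ).re := by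
        rw [hbb, smul_apply, inner_smul_left, Complex.conj_ofReal, Complex.re_ofReal_mul]
      have i4 : ‖(star b * b) S.vac‖ ^ 2 ≤ (N : ℝ)⁻¹ * ((N : ℝ)⁻¹ * ‖a‖ ^ 4) := by
        rw [hbb, smul_apply, norm_smul, Complex.norm_real, Real.norm_eq_abs,
          abs_of_nonneg (by positivity)]
        have : ‖S.flow t (star a * a) S.vac‖ ≤ ‖a‖ ^ 2 := by
          refine (norm_flow_apply_le _ _ _ _).trans ?_
          rw [S.norm_vac, mul_one, CStarRing.norm_star_mul_self, sq]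
        calc _ ≤ ((N : ℝ)⁻¹ * ‖a‖ ^ 2) ^ 2 := by gcongr
          _ = _ := by ring
      have i5 : ‖star v (b S.vac)‖ ^ 2 = (N : ℝ)⁻¹ * ‖star v (S.flow t a S.vac)‖ ^ 2 := by
        rw [hb, smul_apply, map_smul, norm_smul, nε, mul_pow, hε2]
      have i6 : ‖star b (v S.vac)‖ ^ 2 = (N : ℝ)⁻¹ * ‖star (S.flow t a) (v S.vac)‖ ^ 2 := by
        rw [hsb, smul_apply, norm_smul, nε, mul_pow, hε2]
      have i7 : ‖b S.vac‖ ^ 2 ≤ (N : ℝ)⁻¹ * B := by
        rw [hb, smul_apply, norm_smul, nε, mul_pow, hε2, flow_vac, norm_wave_apply]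
        gcongr
      have i8 : ‖star b S.vac‖ ^ 2 ≤ (N : ℝ)⁻¹ * B := by
        rw [hsb, smul_apply, norm_smul, nε, mul_pow, hε2, star_flow, flow_vac, norm_wave_apply]
        gcongr
      have hpot : pot S.vac T l m κ v w = pot S.vac T l m (4 * m * B * (N - k) * (N : ℝ)⁻¹) v w +
          (N : ℝ)⁻¹ * (4 * m * B * (‖v S.vac‖ ^ 2 + ‖star v S.vac‖ ^ 2)) := by
        simp only [pot, hκ]; push_cast; ring
      have hR : ((k + 1 : ℕ) : ℝ) * ((N : ℝ)⁻¹ * (c / 4)) ≤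
          pot S.vac T l m κ v w + (‖T u‖ ^ 2 - l * ‖b S.vac - u‖ ^ 2 -
          m * (2 * (⟪(star b * b) S.vac, (star v * v) S.vac⟫_ℂ).re + ‖(star b * b) S.vac‖ ^ 2 +
          2 * ‖star v (b S.vac)‖ ^ 2 + 2 * ‖star b (v S.vac)‖ ^ 2) -
          κ * (‖b S.vac‖ ^ 2 + ‖star b S.vac‖ ^ 2)) := by
        rw [hpot, i1, i3, i5, i6]
        have hNi : (0 : ℝ) ≤ (N : ℝ)⁻¹ := by positivity
        have j1 := mul_le_mul_of_nonneg_left ht hNi
        have j2 : l * ‖b S.vac - u‖ ^ 2 ≤ (N : ℝ)⁻¹ * (c / 8) := by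
          calc _ ≤ l * ((N : ℝ)⁻¹ * η ^ 2) := mul_le_mul_of_nonneg_left i2 hl
            _ = (N : ℝ)⁻¹ * (l * η ^ 2) := by ring
            _ ≤ _ := mul_le_mul_of_nonneg_left hlη hNi
        have j3 : m * ‖(star b * b) S.vac‖ ^ 2 ≤ (N : ℝ)⁻¹ * (c / 8) := by
          calc _ ≤ m * ((N : ℝ)⁻¹ * ((N : ℝ)⁻¹ * ‖a‖ ^ 4)) := mul_le_mul_of_nonneg_left i4 hm
            _ = (N : ℝ)⁻¹ * (m * ((N : ℝ)⁻¹ * ‖a‖ ^ 4)) := by ring
            _ ≤ _ := mul_le_mul_of_nonneg_left hNa hNi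
        have j4 : κ * (‖b S.vac‖ ^ 2 + ‖star b S.vac‖ ^ 2) ≤ (N : ℝ)⁻¹ * (c / 4) := by
          calc _ ≤ (4 * m * B) * ((N : ℝ)⁻¹ * B + (N : ℝ)⁻¹ * B) := by gcongr
            _ = (N : ℝ)⁻¹ * (8 * m * B ^ 2) := by ring
            _ ≤ _ := mul_le_mul_of_nonneg_left hmB hNi
        rw [Nat.cast_succ]
        linarith
      rcases hstep with hs | hs
      · exact ⟨v + b, add_mem hv hbM, w + u, supportedIn_add hw huK, hR.trans hs⟩
      · refine ⟨v - b, sub_mem hv hbM, w - u, ?_, hR.trans hs⟩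
        have := supportedIn_add hw (supportedIn_smul (-1) huK)
        rwa [neg_one_smul, ← sub_eq_add_neg] at this
  obtain ⟨v, hv, w, hw, hp⟩ := key N le_rfl
  refine ⟨v, hv, w, hw, ?_⟩
  rw [sub_self, mul_zero, zero_mul, ← mul_assoc, mul_inv_cancel₀ hN0.ne', one_mul] at hp
  exact hp

end Crest.Agent.R84
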