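import Crest.Agent.R84.Step

/-! Truncation and spectral smoothing. -/

set_option autoImplicit false

namespace Crest.Agent.R84

open Crest.OpAlg Crest.OpAlg.LineCalculus Filter MeasureTheory
open scoped Topology InnerProductSpace BoundedContinuousFunction FourierTransform

variable {H : Type*} [NormedAddCommGroup H] [InnerProductSpace ℂ H] [CompleteSpace H]

theorem exists_trunc (M : VonNeumannAlgebra H) {v : H →L[ℂ] H} (hv : v ∈ M) {R : ℝ} (hR : 0 < R) :
    ∃ v' ∈ M, ‖v'‖ ≤ R ∧ ∀ x, ‖v x - v' x‖ ≤ ‖(star v * v) x‖ / R := by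
  set ρ : ℝ := (R ^ 2)⁻¹ with hρ
  have hρ0 : 0 < ρ := by positivity
  set P : H →L[ℂ] H := 1 + (ρ : ℂ) • (star v * v) with hP
  have hPM : P ∈ M := add_mem (one_mem _)
    (M.toStarSubalgebra.smul_mem (mul_mem (star_mem hv) hv) _)
  have hPu : IsUnit P := by
    refine CStarAlgebra.isUnit_of_le 1 ?_
    rw [hP, le_add_iff_nonneg_right]
    have : (ρ : ℂ) • (star v * v) = ρ • (star v * v) := rfl
    rw [this]
    exact smul_nonneg hρ0.le (star_mul_self_nonneg v)
  obtain ⟨U, hU⟩ := hPu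
  set r : H →L[ℂ] H := ↑U⁻¹ with hr
  have hPr : P * r = 1 := by rw [← hU, hr]; exact U.mul_inv
  have hrP : r * P = 1 := by rw [← hU, hr]; exact U.inv_mul
  have hrM : r ∈ M := by
    refine mem_of_commute M r fun y hy => ?_
    have h1 := hy P hPM
    calc y * r = (r * P) * y * r := by rw [hrP, one_mul]
      _ = r * (P * y) * r := by simp only [mul_assoc]
      _ = r * y * (P * r) := by rw [h1]; simp only [mul_assoc]
      _ = r * y := by rw [hPr, mul_one]
  have hn : ‖v * r‖ ≤ R := by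
    refine ContinuousLinearMap.opNorm_le_bound _ hR.le fun y => ?_
    set x := r y with hx
    have hy : y = x + (ρ : ℂ) • (star v * v) x := by
      have := congrArg (fun A : H →L[ℂ] H => A y) hPr
      simp only [mul_apply_eq_comp, one_apply_eq_self] at this
      rw [← this, hP]; simp [hx]
    have h2 := @norm_add_sq ℂ H _ _ _ x ((ρ : ℂ) • (star v * v) x)
    rw [← hy, inner_smul_right, inner_star_mul_self', ← Complex.ofReal_mul] at h2
    simp only [RCLike.re_to_complex, Complex.ofReal_re] at h2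
    have h3 : ρ * ‖v x‖ ^ 2 ≤ ‖y‖ ^ 2 := by
      have : 0 ≤ ρ * ‖v x‖ ^ 2 := by positivity
      nlinarith [sq_nonneg ‖x‖, sq_nonneg ‖(ρ : ℂ) • (star v * v) x‖]
    rw [hρ, inv_mul_le_iff₀ (by positivity), ← mul_pow] at h3
    exact (pow_le_pow_iff_left₀ (norm_nonneg _) (by positivity) two_ne_zero).1 h3
  refine ⟨v * r, mul_mem hv hrM, hn, fun x => ?_⟩
  have h1 : v x - (v * r) x = (ρ : ℂ) • (v * r) ((star v * v) x) := by
    have h2 : v = v * r * P := by rw [mul_assoc, hrP, mul_one]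
    have h3 : v x = (v * r) (P x) := congrArg (fun A : H →L[ℂ] H => A x) h2
    rw [h3, hP]
    simp
  rw [h1, norm_smul, Complex.norm_real, Real.norm_eq_abs, abs_of_pos hρ0]
  calc ρ * ‖(v * r) ((star v * v) x)‖ ≤ ρ * (R * ‖(star v * v) x‖) := by
        gcongr
        exact ((v * r).le_opNorm _).trans (mul_le_mul_of_nonneg_right hn (norm_nonneg _))
    _ = _ := by rw [hρ]; field_simp

theorem exists_kernel : ∃ (k : ℝ → ℂ) (F : ℝ → ℂ), Integrable k ∧ Continuous F ∧
    (∀ u, ‖F u‖ ≤ 1) ∧ (∀ u, |u| ≤ 1 → F u = 1) ∧ (∀ u, 4 ≤ |u| → F u = 0) ∧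
    ∀ u, F u = ∫ τ, k τ * Complex.exp (Complex.I * ((2 * Real.pi * τ * u : ℝ) : ℂ)) := by
  let b : ContDiffBump (0 : ℝ) := ⟨1, 4, one_pos, by norm_num⟩
  let F : ℝ → ℂ := fun u => ((b u : ℝ) : ℂ)
  have hF1 : HasCompactSupport F :=
    b.hasCompactSupport.comp_left (g := fun x : ℝ => (x : ℂ)) (by simp)
  have hF2 : ContDiff ℝ (⊤ : ℕ∞) F := Complex.ofRealCLM.contDiff.comp b.contDiff
  let f : SchwartzMap ℝ ℂ := hF1.toSchwartzMap hF2
  have hf : (f : ℝ → ℂ) = F := rfl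
  refine ⟨𝓕 F, F, (𝓕 f).integrable, hF2.continuous, fun u => ?_, fun u hu => ?_,
    fun u hu => ?_, fun u => ?_⟩
  · simp only [F, Complex.norm_real, Real.norm_eq_abs, abs_of_nonneg b.nonneg]
    exact b.le_one
  · simp only [F]
    rw [b.one_of_mem_closedBall (by simpa [b] using hu)]; simp
  · simp only [F]
    rw [b.zero_of_le_dist (by simpa [b] using hu)]; simp
  · have := hF2.continuous.fourierInv_fourier_eq (hf ▸ f.integrable) (𝓕 f).integrable
    conv_lhs => rw [← this, Real.fourierInv_eq']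
    congr 1; ext τ
    rw [smul_eq_mul, mul_comm]
    congr 2
    simp only [RCLike.inner_apply, conj_trivial]
    push_cast; ring

theorem exists_smooth : ∃ C : ℝ, 0 ≤ C ∧ ∀ (S : ModularDatum H) (s δ : ℝ), 0 < δ →
    ∀ v ∈ S.M, ∃ v' ∈ S.M, ‖v'‖ ≤ C * ‖v‖ ∧
      S.D.SupportedIn (Set.Icc (s - 4 * δ) (s + 4 * δ)) (v' S.vac) ∧
      ∀ w, S.D.SupportedIn (Set.Icc (s - δ) (s + δ)) w → ‖v' S.vac - w‖ ≤ ‖v S.vac - w‖ := by
  obtain ⟨k, F, hk, hFc, hF1, hFone, hFzero, hFk⟩ := exists_kernel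
  refine ⟨∫ τ, ‖k τ‖, by positivity, fun S s δ hδ v hv => ?_⟩
  set l : ℝ := 2 * Real.pi / δ with hl
  set k' : ℝ → ℂ := fun τ => k τ * character (l * τ) (-s) with hk'
  have hnk : ∀ τ, ‖k' τ‖ = ‖k τ‖ := fun τ => by
    simp only [hk', norm_mul, norm_character_apply, mul_one]
  have hk'i : Integrable k' := by
    refine Integrable.mono' hk.norm (hk.aestronglyMeasurable.mul ?_)
      (Eventually.of_forall fun τ => (hnk τ).le)
    refine Continuous.aestronglyMeasurable ?_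
    simp only [character_apply]; fun_prop
  let G : ℝ →ᵇ ℂ := BoundedContinuousFunction.ofNormedAddCommGroup
    (fun u => F ((u - s) / δ)) (by fun_prop) 1 (fun u => hF1 _)
  have hG : ∀ u, G u = F ((u - s) / δ) := fun u => rfl
  have hGn : ‖G‖ ≤ 1 := (BoundedContinuousFunction.norm_le zero_le_one).2 fun u => hF1 _
  have hGk : ∀ u, G u = ∫ τ, k' τ * character (l * τ) u := by
    intro u
    rw [hG, hFk]
    congr 1; ext τ
    simp only [hk', character_apply, mul_assoc (k τ), ← Complex.exp_add, ← mul_add,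
      ← Complex.ofReal_add]
    congr 4
    rw [hl]; field_simp; ring
  obtain ⟨L, hLM, hL, hLn⟩ := exists_strong_integral S.M volume
    (fun τ => k' τ • S.flow (l * τ) v) (fun τ => ‖k τ‖ * ‖v‖)
    (fun x => hk'i.aestronglyMeasurable.smul
      ((continuous_flow_apply S v x).comp (by fun_prop)).aestronglyMeasurable)
    (hk.norm.mul_const _)
    (fun τ => by rw [norm_smul, hnk]; gcongr; exact norm_flow_le _ _ _)
    (fun τ => S.M.toStarSubalgebra.smul_mem (S.flow_mem _ v hv) _)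
  have hLv : L S.vac = S.D.apply G (v S.vac) := by
    rw [hL, ← integral_smul_wave S.D hk'i l G hGk]
    congr 1; ext τ
    rw [smul_apply, flow_vac]
  refine ⟨L, hLM, by rwa [integral_mul_const] at hLn, ?_, fun w hw => ?_⟩
  · rw [hLv]
    refine supportedIn_apply_of_vanish _ _ (fun u hu => ?_) _
    rw [hG]
    refine hFzero _ ?_
    rw [abs_div, abs_of_pos hδ, le_div_iff₀ hδ]
    by_contra hcon
    push Not at hcon
    rw [abs_lt] at hcon
    exact hu ⟨by linarith [hcon.1], by linarith [hcon.2]⟩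
  · have hw' : S.D.apply G w = w := by
      refine apply_eq_self_of_supportedIn hw _ fun u hu => ?_
      rw [hG]
      refine hFone _ ?_
      rw [abs_div, abs_of_pos hδ, div_le_one hδ, abs_le]
      exact ⟨by linarith [hu.1], by linarith [hu.2]⟩
    rw [hLv]
    conv_lhs => rw [← hw', ← map_sub]
    exact (norm_apply_apply_le _ _ _).trans (mul_le_of_le_one_left (norm_nonneg _) hGn)

theorem recovery_one (T : H →L[ℂ] H) (s c : ℝ) (hc0 : 0 < c) : ∃ C η : ℝ, 0 < η ∧
    ∀ (S : ModularDatum H), S.Ergodic → ∀ (ω : Ultrafilter ℕ), (ω : Filter ℕ) ≤ atTop →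
    ∀ δ : ℝ, 0 < δ → δ ≤ 1 → ∀ h : H, ‖h‖ = 1 → S.D.SupportedIn (Set.Icc (s - δ) (s + δ)) h →
    c ≤ ultraMean ω (fun t : ℝ => ‖T (S.D.wave t h)‖ ^ 2) →
    ∃ v ∈ S.M, ‖v‖ ≤ C ∧ η ≤ ‖T (v S.vac)‖ ∧
      S.D.SupportedIn (Set.Icc (s - 4 * δ) (s + 4 * δ)) (v S.vac) := by
  obtain ⟨C, hC0, hC⟩ := exists_smooth (H := H)
  set E : ℝ := Real.exp ((s + 1) / 2) + 2 with hE
  have hE0 : 0 < E := by positivity
  set B : ℝ := E ^ 2 with hB
  have hB0 : 0 < B := by positivity
  set m : ℝ := c / (32 * B ^ 2) with hm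
  have hm0 : 0 < m := by positivity
  set A : ℝ := 4 * (‖T‖ + 1) with hA
  have hA0 : 0 < A := by positivity
  set R : ℝ := A / Real.sqrt m with hR
  have hsm : 0 < Real.sqrt m := Real.sqrt_pos.2 hm0
  have hR0 : 0 < R := by positivity
  set η : ℝ := min 1 (Real.sqrt (c / (8 * A ^ 2))) with hη
  have hη0 : 0 < η := lt_min one_pos (Real.sqrt_pos.2 (by positivity))
  have hη1 : η ≤ 1 := min_le_left _ _
  have hη2 : A ^ 2 * η ^ 2 ≤ c / 8 := by
    have : η ^ 2 ≤ c / (8 * A ^ 2) := by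
      rw [← Real.sq_sqrt (show 0 ≤ c / (8 * A ^ 2) by positivity)]
      exact pow_le_pow_left₀ hη0.le (min_le_right _ _) 2
    calc _ ≤ A ^ 2 * (c / (8 * A ^ 2)) := by gcongr
      _ = _ := by field_simp
  refine ⟨C * R, Real.sqrt c / 4, by positivity, fun S herg ω hω δ hδ hδ1 h hh hband hc => ?_⟩
  obtain ⟨a, ha, ha1, ha2⟩ := exists_approx S (b := s + 1)
    (fun u hu => hu.2.trans (by linarith)) hband hη0
  rw [hh, mul_one] at ha2
  have hB1 : ‖a S.vac‖ ^ 2 ≤ B := by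
    refine pow_le_pow_left₀ (norm_nonneg _) ?_ 2
    have := norm_sub_norm_le (a S.vac) h
    linarith [Real.exp_pos ((s + 1) / 2)]
  have hB2 : ‖star a S.vac‖ ^ 2 ≤ B := pow_le_pow_left₀ (norm_nonneg _) (by linarith) 2
  obtain ⟨v, hv, w, hw, hp⟩ := exists_greedy S herg ω hω T ha hband hc0 hc hm0.le
    (l := A ^ 2) (by positivity) hB1 hB2 ha1 (le_of_eq (by rw [hm]; field_simp; ring)) hη2
  obtain ⟨v', hv', hn', hv'x⟩ := exists_trunc S.M hv hR0
  obtain ⟨v'', hv'', hn'', hsupp, hw''⟩ := hC S s δ hδ v' hv'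
  refine ⟨v'', hv'', hn''.trans (by gcongr), ?_, hsupp⟩
  simp only [pot, zero_mul, sub_zero] at hp
  set x : ℝ := ‖T w‖ with hx
  have hx0 : 0 ≤ x := norm_nonneg _
  have p1 : 0 ≤ A ^ 2 * ‖v S.vac - w‖ ^ 2 := by positivity
  have p2 : 0 ≤ m * ‖(star v * v) S.vac‖ ^ 2 := by positivity
  have q0 : Real.sqrt c / 2 ≤ x := by
    refine (pow_le_pow_iff_left₀ (by positivity) hx0 two_ne_zero).1 ?_
    rw [div_pow, Real.sq_sqrt hc0.le]; linarith
  have q1 : ‖v S.vac - w‖ ≤ x / A := by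
    rw [le_div_iff₀ hA0]
    refine (pow_le_pow_iff_left₀ (by positivity) hx0 two_ne_zero).1 ?_
    rw [mul_pow]; linarith
  have q2 : ‖(star v * v) S.vac‖ / R ≤ x / A := by
    have : ‖(star v * v) S.vac‖ * Real.sqrt m ≤ x := by
      refine (pow_le_pow_iff_left₀ (by positivity) hx0 two_ne_zero).1 ?_
      rw [mul_pow, Real.sq_sqrt hm0.le]; linarith
    rw [hR, div_div_eq_mul_div]
    gcongr
  have q3 : ‖v'' S.vac - w‖ ≤ x / A + x / A := by
    refine (hw'' w hw).trans ?_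
    have := norm_sub_le_norm_sub_add_norm_sub (v' S.vac) (v S.vac) w
    rw [norm_sub_rev (v' S.vac) (v S.vac)] at this
    linarith [hv'x S.vac]
  have q4 : ‖T (v'' S.vac) - T w‖ ≤ x / 2 := by
    rw [← map_sub]
    refine (T.le_opNorm _).trans ?_
    calc _ ≤ (‖T‖ + 1) * (x / A + x / A) := by gcongr; linarith
      _ = x / 2 := by rw [hA]; field_simp; ring
  have q5 := norm_sub_norm_le (T w) (T (v'' S.vac))
  rw [norm_sub_rev] at q5
  linarith

end Crest.Agent.R84
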