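import Crest.Agent.R84.Calc

/-! The vacuum vector is fixed by the modular group; approximation of band-limited vectors. -/

set_option autoImplicit false

namespace Crest.Agent.R84

open Crest.OpAlg Crest.OpAlg.LineCalculus Filter MeasureTheory
open scoped Topology InnerProductSpace BoundedContinuousFunction

variable {H : Type*} [NormedAddCommGroup H] [InnerProductSpace ℂ H] [CompleteSpace H]

omit [CompleteSpace H] in
lemma re_inner_J (J : H ≃ₗᵢ⋆[ℂ] H) (a b : H) : (⟪J a, J b⟫_ℂ).re = (⟪a, b⟫_ℂ).re := by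
  have h1 := @norm_add_sq ℂ H _ _ _ (J a) (J b)
  have h2 := @norm_add_sq ℂ H _ _ _ a b
  rw [← map_add, J.norm_map, J.norm_map, J.norm_map] at h1
  simp only [RCLike.re_to_complex] at h1 h2
  linarith

omit [CompleteSpace H] in
lemma inner_J (J : H ≃ₗᵢ⋆[ℂ] H) (a b : H) : ⟪J a, J b⟫_ℂ = ⟪b, a⟫_ℂ := by
  have h1 := re_inner_J J a b
  have h2 := re_inner_J J (Complex.I • a) b
  rw [J.map_smulₛₗ, inner_smul_left, inner_smul_left] at h2
  rw [← inner_conj_symm b a]
  apply Complex.ext
  · rw [Complex.conj_re]; exact h1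
  · simp at h2
    rw [Complex.conj_im]; linarith

/-- `f · e^{u/2}` for compactly supported `f`. -/
noncomputable def halfMul (f : ℝ →ᵇ ℂ) (hf : HasCompactSupport (f : ℝ → ℂ)) : ℝ →ᵇ ℂ :=
  ofCompactSupport (fun u => f u * ((Real.exp (u / 2) : ℝ) : ℂ)) (by fun_prop) hf.mul_right

lemma halfMul_apply (f : ℝ →ᵇ ℂ) (hf : HasCompactSupport (f : ℝ → ℂ)) (u : ℝ) :
    halfMul f hf u = f u * ((Real.exp (u / 2) : ℝ) : ℂ) := rfl

lemma halfMul_compact (f : ℝ →ᵇ ℂ) (hf : HasCompactSupport (f : ℝ → ℂ)) :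
    HasCompactSupport (halfMul f hf : ℝ → ℂ) := hf.mul_right

lemma mem_graph_iff (S : ModularDatum H) (p : H × H) :
    p ∈ closure (Set.range fun a : S.M =>
      ((a : H →L[ℂ] H) S.vac, star (a : H →L[ℂ] H) S.vac)) ↔ S.D.HalfExp p.1 (S.J p.2) := by
  rw [S.tomita]; rfl

lemma inner_graph (S : ModularDatum H) (x y : H) (h : S.D.HalfExp x (S.J y)) :
    ⟪S.vac, y⟫_ℂ = ⟪x, S.vac⟫_ℂ := by
  have hcl : IsClosed {p : H × H | ⟪S.vac, p.2⟫_ℂ = ⟪p.1, S.vac⟫_ℂ} :=
    isClosed_eq (by fun_prop) (by fun_prop)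
  have := (mem_graph_iff S (x, y)).2 h
  refine (hcl.closure_subset_iff.2 ?_) this
  rintro _ ⟨a, rfl⟩
  simp only [Set.mem_ofPred_eq, ContinuousLinearMap.star_eq_adjoint,
    ContinuousLinearMap.adjoint_inner_right]

lemma halfExp_vac (S : ModularDatum H) : S.D.HalfExp S.vac (S.J S.vac) := by
  refine (mem_graph_iff S (S.vac, S.vac)).1 (subset_closure ⟨⟨1, one_mem _⟩, ?_⟩)
  simp

lemma halfExp_apply (D : LineCalculus H) (f : ℝ →ᵇ ℂ) (hf : HasCompactSupport (f : ℝ → ℂ))
    (x : H) : D.HalfExp (D.apply f x) (D.apply (halfMul f hf) x) := by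
  intro f' g' h
  rw [apply_apply, apply_apply]
  congr 2
  ext u
  simp only [BoundedContinuousFunction.mul_apply, halfMul_apply, h]
  ring

lemma inner_apply_left (D : LineCalculus H) (f : ℝ →ᵇ ℂ) (x y : H) :
    ⟪D.apply f x, y⟫_ℂ = ⟪x, D.apply (star f) y⟫_ℂ := by
  rw [map_star, ContinuousLinearMap.star_eq_adjoint, ContinuousLinearMap.adjoint_inner_right]

lemma halfMul_J_vac (S : ModularDatum H) (f : ℝ →ᵇ ℂ) (hf : HasCompactSupport (f : ℝ → ℂ)) :
    S.D.apply (halfMul f hf) (S.J S.vac) = S.D.apply f S.vac := by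
  have hf' : HasCompactSupport ((star f : ℝ →ᵇ ℂ) : ℝ → ℂ) :=
    hf.comp_left (g := fun z : ℂ => star z) (star_zero _)
  refine ext_inner_left ℂ fun x => ?_
  have h := inner_graph S (S.D.apply (star f) x) (S.J (S.D.apply (halfMul _ hf') x))
    (by rw [S.J_J]; exact halfExp_apply _ _ _ _)
  rw [inner_apply_left, star_star] at h
  rw [← h]
  conv_rhs => rw [← S.J_J S.vac]
  rw [inner_J, inner_apply_left]
  congr 3
  ext u
  simp only [halfMul_apply, BoundedContinuousFunction.star_apply, star_mul', star_star,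
    RCLike.star_def, Complex.conj_ofReal, Complex.conj_conj]

lemma apply_exp_vac (S : ModularDatum H) (f : ℝ →ᵇ ℂ) (hf : HasCompactSupport (f : ℝ → ℂ)) :
    S.D.apply (halfMul _ (halfMul_compact f hf)) S.vac = S.D.apply f S.vac := by
  rw [← halfMul_J_vac S f hf]
  exact (halfExp_vac S _ _ fun u => rfl).symm

theorem wave_vac (S : ModularDatum H) (t : ℝ) : S.D.wave t S.vac = S.vac := by
  have hcl : IsClosed {y : H | S.D.wave t y = y} :=
    isClosed_eq (S.D.wave t).continuous continuous_id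
  refine (hcl.closure_subset_iff.2 ?_) (mem_closure_window S.D S.vac)
  rintro y ⟨g, hg, rfl⟩
  set c : ℝ → ℂ := fun u => character t u with hc
  set e : ℝ → ℂ := fun u => ((Real.exp u : ℝ) : ℂ) with he
  have hcd : Differentiable ℝ c := by
    simp only [hc, character_apply]; fun_prop
  have hed : Differentiable ℝ e := by
    simp only [he]
    exact Complex.ofRealCLM.differentiable.comp Real.differentiable_exp
  have hcc : Continuous (dslope c 0) := by
    rw [← continuousOn_univ, continuousOn_dslope Filter.univ_mem]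
    exact ⟨hcd.continuous.continuousOn, hcd 0⟩
  have hec : Continuous (dslope e 0) := by
    rw [← continuousOn_univ, continuousOn_dslope Filter.univ_mem]
    exact ⟨hed.continuous.continuousOn, hed 0⟩
  have hene : ∀ u, dslope e 0 u ≠ 0 := by
    intro u
    by_cases hu : u = 0
    · subst hu
      rw [dslope_same]
      have : HasDerivAt e ((Real.exp 0 : ℝ) : ℂ) 0 := (Real.hasDerivAt_exp 0).ofReal_comp
      rw [this.deriv]; simp
    · intro h0
      have := sub_smul_dslope e 0 u
      rw [h0, smul_zero] at this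
      simp only [he, Real.exp_zero] at this
      have h1 : Real.exp u = 1 := by
        have := sub_eq_zero.1 this.symm
        exact_mod_cast this
      exact hu (Real.exp_eq_one_iff u |>.1 h1)
  let f : ℝ →ᵇ ℂ := ofCompactSupport (fun u => g u * (dslope c 0 u / dslope e 0 u))
    (g.continuous.mul (hcc.div hec hene)) hg.mul_right
  have hf : HasCompactSupport (f : ℝ → ℂ) := hg.mul_right
  have h1 := apply_exp_vac S f hf
  have h2 : halfMul _ (halfMul_compact f hf) - f = character t * g - g := by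
    ext u
    simp only [BoundedContinuousFunction.sub_apply, BoundedContinuousFunction.mul_apply,
      halfMul_apply]
    have hfu : f u = g u * (dslope c 0 u / dslope e 0 u) := rfl
    have h3 := sub_smul_dslope c 0 u
    have h4 := sub_smul_dslope e 0 u
    have h5 : ((Real.exp (u / 2) : ℝ) : ℂ) * ((Real.exp (u / 2) : ℝ) : ℂ) = e u := by
      simp only [he]; rw [← Complex.ofReal_mul, ← Real.exp_add]; congr 2; ring
    have h6 : c 0 = 1 := by simp [hc, character_apply]
    have h7 : e 0 = 1 := by simp [he]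
    rw [h6, sub_zero, Complex.real_smul] at h3
    rw [h7, sub_zero, Complex.real_smul] at h4
    have h8 : character t u = c u := rfl
    rw [mul_assoc, h5, hfu, h8]
    have h9 : e u = 1 + u * dslope e 0 u := by rw [h4]; ring
    have h10 : c u = 1 + u * dslope c 0 u := by rw [h3]; ring
    rw [h10, h9]
    field_simp [hene u]
    ring
  have h3 : S.D.apply (character t * g - g) S.vac = 0 := by
    rw [← h2, map_sub, sub_apply, h1, sub_self]
  rw [map_sub, sub_apply, sub_eq_zero, ← apply_apply] at h3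
  exact h3

/-- A vector with spectral support in `(-∞, b]` is approximated by `a ξ` with `a⋆ ξ` controlled. -/
theorem exists_approx (S : ModularDatum H) {K : Set ℝ} {b : ℝ} (hK : ∀ u ∈ K, u ≤ b) {h : H}
    (hh : S.D.SupportedIn K h) {η : ℝ} (hη : 0 < η) :
    ∃ a ∈ S.M, ‖a S.vac - h‖ ≤ η ∧ ‖star a S.vac‖ ≤ Real.exp (b / 2) * ‖h‖ + η := by
  have hGb : ∀ u : ℝ, ‖((Real.exp (min u b / 2) : ℝ) : ℂ)‖ ≤ Real.exp (b / 2) := by
    intro u
    rw [Complex.norm_real, Real.norm_eq_abs, abs_of_pos (Real.exp_pos _)]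
    exact Real.exp_le_exp.2 (by linarith [min_le_right u b])
  let G : ℝ →ᵇ ℂ := BoundedContinuousFunction.ofNormedAddCommGroup
    (fun u => ((Real.exp (min u b / 2) : ℝ) : ℂ)) (by fun_prop) _ hGb
  have hG : ∀ u, G u = ((Real.exp (min u b / 2) : ℝ) : ℂ) := fun u => rfl
  have hGn : ‖G‖ ≤ Real.exp (b / 2) :=
    (BoundedContinuousFunction.norm_le (Real.exp_pos _).le).2 hGb
  have hhalf : S.D.HalfExp h (S.J (S.J (S.D.apply G h))) := by
    rw [S.J_J]
    intro f g hfg
    rw [apply_apply]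
    refine apply_eq_of_supportedIn hh _ _ fun u hu => ?_
    rw [BoundedContinuousFunction.mul_apply, hfg, hG, min_eq_left (hK u hu)]
  have hmem := (mem_graph_iff S (h, S.J (S.D.apply G h))).2 hhalf
  obtain ⟨_, ⟨a, rfl⟩, hd⟩ := Metric.mem_closure_iff.1 hmem η hη
  rw [Prod.dist_eq, max_lt_iff, dist_eq_norm, dist_eq_norm] at hd
  refine ⟨a, a.2, ?_, ?_⟩
  · rw [norm_sub_rev]; exact hd.1.le
  · have h1 : ‖S.J (S.D.apply G h)‖ ≤ Real.exp (b / 2) * ‖h‖ := by
      rw [S.J.norm_map]
      exact (norm_apply_apply_le _ _ _).trans (mul_le_mul_of_nonneg_right hGn (norm_nonneg _))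
    have h2 := norm_sub_norm_le (star (a : H →L[ℂ] H) S.vac) (S.J (S.D.apply G h))
    rw [norm_sub_rev] at h2
    linarith [hd.2]

end Crest.Agent.R84
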